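import Vale.Agent.P310.Main

open Filter Asymptotics

/-- Unconditional lower bound: for every fixed `k ≥ 288`, every deterministic multitape Turing
machine deciding `k`-WL equivalence has worst-case time at least `n ^ (k / 216)` for all large
`n`. Hence there is no `g(k) = o(k)` with running time `O(n ^ g(k))` for every fixed `k`. -/
theorem Vale.Agent.Results.P310.TimeLowerBound.result :
    (∀ k : ℕ, 288 ≤ k → ∀ M : Vale.Agent.P310.TM, M.DecidesWL k →
      ∀ᶠ n : ℕ in atTop, (n : ℝ) ^ ((k : ℝ) / 216) ≤ (M.worstTime n : ℝ)) ∧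
    ¬ ∃ g : ℕ → ℝ, (g =o[atTop] fun k : ℕ => (k : ℝ)) ∧
      ∀ k : ℕ, 2 ≤ k → ∃ M : Vale.Agent.P310.TM, M.DecidesWL k ∧
        (fun n : ℕ => (M.worstTime n : ℝ)) =O[atTop] fun n : ℕ => (n : ℝ) ^ g k := by
  have main : ∀ k : ℕ, 288 ≤ k → ∀ M : Vale.Agent.P310.TM, M.DecidesWL k →
      ∀ᶠ n : ℕ in atTop, (n : ℝ) ^ ((k : ℝ) / 216) ≤ (M.worstTime n : ℝ) := by
    intro k hk M hM
    have := Vale.Agent.P310.main_bound k hk M hM
    rwa [show (1 / 216 : ℝ) * k = k / 216 by ring] at this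
  refine ⟨main, ?_⟩
  rintro ⟨g, hg, hall⟩
  have h1 := hg.bound (show (0 : ℝ) < 1 / 432 by norm_num)
  obtain ⟨k, hk1, hk2⟩ := (h1.and (eventually_ge_atTop 288)).exists
  obtain ⟨M, hM, hO⟩ := hall k (by omega)
  obtain ⟨C, hC⟩ := hO.bound
  have hkpos : (288 : ℝ) ≤ k := by exact_mod_cast hk2
  have hgk : g k ≤ k / 432 := by
    have h2 := le_abs_self (g k)
    rw [Real.norm_eq_abs, Real.norm_eq_abs, abs_of_nonneg (by positivity : (0 : ℝ) ≤ k)] at hk1
    linarith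
  have ht : Tendsto (fun n : ℕ => (n : ℝ) ^ ((k : ℝ) / 432)) atTop atTop :=
    (tendsto_rpow_atTop (by positivity)).comp tendsto_natCast_atTop_atTop
  obtain ⟨n, ⟨⟨h3, h4⟩, h5⟩, h6⟩ := ((((main k hk2 M hM).and hC).and
    (ht.eventually_gt_atTop (max C 0))).and (eventually_ge_atTop 1)).exists
  have hn : (1 : ℝ) ≤ n := by exact_mod_cast h6
  have hp : (0 : ℝ) < (n : ℝ) ^ ((k : ℝ) / 432) := by positivity
  rw [Real.norm_eq_abs, Real.norm_eq_abs, abs_of_nonneg (by positivity),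
    abs_of_nonneg (by positivity)] at h4
  have h7 : (n : ℝ) ^ g k ≤ (n : ℝ) ^ ((k : ℝ) / 432) := Real.rpow_le_rpow_of_exponent_le hn hgk
  have h8 : (n : ℝ) ^ ((k : ℝ) / 216) = (n : ℝ) ^ ((k : ℝ) / 432) * (n : ℝ) ^ ((k : ℝ) / 432) := by
    rw [← Real.rpow_add (by positivity)]
    congr 1
    ring
  have h9 : C * (n : ℝ) ^ g k ≤ max C 0 * (n : ℝ) ^ ((k : ℝ) / 432) :=
    mul_le_mul (le_max_left _ _) h7 (by positivity) (le_max_right _ _)
  have h10 := mul_lt_mul_of_pos_right h5 hp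
  linarith
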